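import Vale.Agent.P097.H699.Schottky
import Mathlib.Analysis.Complex.Schwarz
import Mathlib.Analysis.Calculus.MeanValue

/-!
# Julia-Wolff at infinity on a half plane

Pure complex analysis.  `V` holomorphic on `Re z > A` with `Re V ≥ 0` has an angular derivative at
infinity which is a real number `≥ 0`; for a bounded zero free `f` on `Re z < -A` the logarithmic
derivative has a real limit `≥ 0` at infinity, non tangentially.
-/

open Complex Metric Set Filter Topology

namespace Vale.Agent.P097.H888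

/-- the half plane `Re z > A` -/
def HP (A : ℝ) : Set ℂ := {z | A < z.re}

lemma isOpen_HP (A : ℝ) : IsOpen (HP A) := isOpen_lt continuous_const continuous_re

lemma convex_HP (A : ℝ) : Convex ℝ (HP A) := convex_halfSpace_re_gt A

/-- the Cayley map of the disc onto the half plane, `0` goes to `A + a` -/
noncomputable def cay (A : ℝ) (a ζ : ℂ) : ℂ :=
  A + (a + (starRingEnd ℂ) a * ζ) / (1 - ζ)

lemma one_sub_ne {ζ : ℂ} (hζ : ζ ∈ ball (0 : ℂ) 1) : 1 - ζ ≠ 0 := by
  intro h
  have h1 : ζ = 1 := (sub_eq_zero.1 h).symm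
  rw [h1] at hζ
  simp at hζ

lemma cay_re {A : ℝ} {a ζ : ℂ} (hζ : ζ ∈ ball (0 : ℂ) 1) :
    (cay A a ζ).re = A + a.re * (1 - ‖ζ‖ ^ 2) / ‖1 - ζ‖ ^ 2 := by
  have h0 := one_sub_ne hζ
  have h1 : (a + (starRingEnd ℂ) a * ζ) / (1 - ζ) =
      (a + (starRingEnd ℂ) a * ζ) * (starRingEnd ℂ) (1 - ζ) / ((‖1 - ζ‖ ^ 2 : ℝ) : ℂ) := by
    rw [← Complex.normSq_eq_norm_sq, ← Complex.mul_conj]
    have h2 : (starRingEnd ℂ) (1 - ζ) ≠ 0 := (map_ne_zero _).2 h0
    field_simp
  unfold cay
  rw [h1, add_re, ofReal_re, div_ofReal_re]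
  congr 2
  rw [← Complex.normSq_eq_norm_sq, Complex.normSq_apply]
  simp only [mul_re, add_re, conj_re, conj_im, add_im, sub_re, sub_im, one_re, one_im, mul_im]
  ring

lemma cay_mem {A : ℝ} {a ζ : ℂ} (ha : 0 < a.re) (hζ : ζ ∈ ball (0 : ℂ) 1) :
    cay A a ζ ∈ HP A := by
  show A < (cay A a ζ).re
  rw [cay_re hζ]
  have h0 : 0 < ‖1 - ζ‖ := norm_pos_iff.2 (one_sub_ne hζ)
  have h1 : ‖ζ‖ < 1 := by simpa using hζ
  have h2 : 0 < 1 - ‖ζ‖ ^ 2 := by nlinarith [norm_nonneg ζ]
  have : 0 < a.re * (1 - ‖ζ‖ ^ 2) / ‖1 - ζ‖ ^ 2 := by positivity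
  linarith

lemma cay_zero (A : ℝ) (a : ℂ) : cay A a 0 = A + a := by simp [cay]

lemma hasDerivAt_cay (A : ℝ) (a : ℂ) {ζ : ℂ} (hζ : ζ ∈ ball (0 : ℂ) 1) :
    HasDerivAt (cay A a)
      (((starRingEnd ℂ) a * (1 - ζ) + (a + (starRingEnd ℂ) a * ζ)) / (1 - ζ) ^ 2) ζ := by
  have h1 : HasDerivAt (fun ζ : ℂ => a + (starRingEnd ℂ) a * ζ) ((starRingEnd ℂ) a) ζ := by
    have := ((hasDerivAt_id ζ).const_mul ((starRingEnd ℂ) a)).const_add a
    simpa using this
  have h2 : HasDerivAt (fun ζ : ℂ => 1 - ζ) (-1) ζ := by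
    have := (hasDerivAt_id ζ).const_sub 1
    simpa using this
  have h3 := (h1.div h2 (one_sub_ne hζ)).const_add (A : ℂ)
  refine h3.congr_deriv ?_
  ring

/-- **Schwarz-Pick** on a half plane -/
theorem norm_deriv_le {V : ℂ → ℂ} {A : ℝ} (hV : DifferentiableOn ℂ V (HP A))
    (hpos : ∀ z ∈ HP A, 0 ≤ (V z).re) {z : ℂ} (hz : z ∈ HP A) :
    ‖deriv V z‖ * (z.re - A) ≤ (V z).re := by
  have hz' : A < z.re := hz
  refine le_of_forall_pos_le_add fun ε hε => ?_
  set a : ℂ := z - A with ha
  have hare : a.re = z.re - A := by simp [ha]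
  have ha0 : 0 < a.re := by rw [hare]; linarith
  set b : ℂ := V z + ε with hb
  have hbre : b.re = (V z).re + ε := by simp [hb]
  have hb0 : 0 < b.re := by rw [hbre]; have := hpos z hz; linarith
  have hcz : cay A a 0 = z := by rw [cay_zero, ha]; ring
  set g : ℂ → ℂ := fun ζ => (V (cay A a ζ) + ε - b) / (V (cay A a ζ) + ε + (starRingEnd ℂ) b)
    with hg
  have hden : ∀ ζ ∈ ball (0 : ℂ) 1, V (cay A a ζ) + ε + (starRingEnd ℂ) b ≠ 0 := by
    intro ζ hζ h
    have h1 := congrArg re h
    simp only [add_re, ofReal_re, conj_re, zero_re] at h1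
    have := hpos _ (cay_mem ha0 hζ : cay A a ζ ∈ HP A)
    linarith
  have hVc : ∀ ζ ∈ ball (0 : ℂ) 1, DifferentiableAt ℂ (fun ζ => V (cay A a ζ)) ζ := by
    intro ζ hζ
    have h1 : DifferentiableAt ℂ V (cay A a ζ) :=
      hV.differentiableAt ((isOpen_HP A).mem_nhds (cay_mem ha0 hζ))
    exact h1.comp ζ (hasDerivAt_cay A a hζ).differentiableAt
  have hgd : DifferentiableOn ℂ g (ball 0 1) := by
    intro ζ hζ
    have h1 := hVc ζ hζ
    exact (((h1.add_const (ε : ℂ)).sub_const b).div ((h1.add_const (ε : ℂ)).add_const _)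
      (hden ζ hζ)).differentiableWithinAt
  have hg0 : g 0 = 0 := by
    simp only [hg, hcz, hb, sub_self, zero_div]
  have hgm : MapsTo g (ball 0 1) (closedBall (g 0) 1) := by
    intro ζ hζ
    rw [hg0, mem_closedBall_zero_iff]
    simp only [hg]
    rw [norm_div, div_le_one (norm_pos_iff.2 (hden ζ hζ))]
    have h1 : 0 < (V (cay A a ζ) + ε).re := by
      have := hpos _ (cay_mem ha0 hζ : cay A a ζ ∈ HP A)
      simp only [add_re, ofReal_re]
      linarith
    set u := V (cay A a ζ) + ε with hu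
    have h2 : ‖u - b‖ ^ 2 ≤ ‖u + (starRingEnd ℂ) b‖ ^ 2 := by
      rw [← Complex.normSq_eq_norm_sq, ← Complex.normSq_eq_norm_sq, Complex.normSq_apply,
        Complex.normSq_apply]
      simp only [sub_re, sub_im, add_re, add_im, conj_re, conj_im]
      nlinarith [mul_pos h1 hb0]
    exact le_of_sq_le_sq h2 (norm_nonneg _)
  have hle := Complex.norm_deriv_le_div_of_mapsTo_ball hgd hgm one_pos
  rw [div_one] at hle
  -- the derivative of g at 0
  have hm0 : (0 : ℂ) ∈ ball (0 : ℂ) 1 := by simp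
  have h1 : HasDerivAt (fun ζ => V (cay A a ζ)) (deriv V z * ((2 * a.re : ℝ) : ℂ)) 0 := by
    have h2 : HasDerivAt V (deriv V z) (cay A a 0) := by
      rw [hcz]
      exact (hV.differentiableAt ((isOpen_HP A).mem_nhds hz)).hasDerivAt
    have h3 := h2.comp (0 : ℂ) (hasDerivAt_cay A a hm0)
    refine h3.congr_deriv ?_
    congr 1
    have h4 : a + (starRingEnd ℂ) a = ((2 * a.re : ℝ) : ℂ) := Complex.add_conj a
    rw [← h4]
    simp
    ring
  have h5 : HasDerivAt g (deriv V z * ((2 * a.re : ℝ) : ℂ) / ((2 * b.re : ℝ) : ℂ)) 0 := by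
    have h6 := ((h1.add_const (ε : ℂ)).sub_const b).div
      ((h1.add_const (ε : ℂ)).add_const ((starRingEnd ℂ) b)) (hden 0 hm0)
    refine h6.congr_deriv ?_
    simp only [hcz]
    have h7 : V z + ε + (starRingEnd ℂ) b = ((2 * b.re : ℝ) : ℂ) := by
      rw [← Complex.add_conj b, hb]
    have h8 : V z + ε - b = 0 := by rw [hb]; ring
    rw [h7, h8]
    have h9 : ((2 * b.re : ℝ) : ℂ) ≠ 0 := by
      exact_mod_cast (by positivity : (2 * b.re : ℝ) ≠ 0)
    field_simp
    ring
  rw [h5.deriv, norm_div, norm_mul, Complex.norm_real, Complex.norm_real, Real.norm_eq_abs,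
    Real.norm_eq_abs, abs_of_pos (by positivity), abs_of_pos (by positivity),
    div_le_one (by positivity), hare, hbre] at hle
  linarith

section
variable {V : ℂ → ℂ} {A : ℝ}

lemma hasDerivAt_re_x (hV : DifferentiableOn ℂ V (HP A)) (y : ℝ) {x : ℝ} (hx : A < x) :
    HasDerivAt (fun x : ℝ => (V (x + y * I)).re) (deriv V (x + y * I)).re x := by
  have hm : (x + y * I : ℂ) ∈ HP A := by show A < _; simpa using hx
  have h1 : HasDerivAt V (deriv V (x + y * I)) (x + y * I) :=
    (hV.differentiableAt ((isOpen_HP A).mem_nhds hm)).hasDerivAt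
  have h2 : HasDerivAt (fun z : ℂ => V (z + y * I)) (deriv V (x + y * I)) (x : ℂ) := by
    have h3 : HasDerivAt (fun z : ℂ => z + y * I) 1 (x : ℂ) :=
      (hasDerivAt_id (x : ℂ)).add_const (y * I : ℂ)
    have h4 := h1.comp (x : ℂ) h3
    rw [mul_one] at h4
    exact h4
  exact h2.real_of_complex

lemma hasDerivAt_re_y (hV : DifferentiableOn ℂ V (HP A)) {x : ℝ} (hx : A < x) (y : ℝ) :
    HasDerivAt (fun y : ℝ => (V (x + y * I)).re) (-(deriv V (x + y * I)).im) y := by
  have hm : (x + y * I : ℂ) ∈ HP A := by show A < _; simpa using hx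
  have h1 : HasDerivAt V (deriv V (x + y * I)) (x + y * I) :=
    (hV.differentiableAt ((isOpen_HP A).mem_nhds hm)).hasDerivAt
  have h2 : HasDerivAt (fun z : ℂ => V (x + z * I)) (deriv V (x + y * I) * I) (y : ℂ) := by
    have h3 : HasDerivAt (fun z : ℂ => (x : ℂ) + z * I) I (y : ℂ) := by
      have := ((hasDerivAt_id (y : ℂ)).mul_const I).const_add (x : ℂ)
      simpa using this
    exact h1.comp (y : ℂ) h3
  have h4 := h2.real_of_complex
  refine h4.congr_deriv ?_
  simp

/-- `Re V / (x - A)` is non increasing on horizontal lines -/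
lemma antitone_x (hV : DifferentiableOn ℂ V (HP A)) (hpos : ∀ z ∈ HP A, 0 ≤ (V z).re)
    (y : ℝ) {x₀ x : ℝ} (hx₀ : A < x₀) (hx : x₀ ≤ x) :
    (V (x + y * I)).re * (x₀ - A) ≤ (V (x₀ + y * I)).re * (x - A) := by
  have key : AntitoneOn (fun x : ℝ => (V (x + y * I)).re / (x - A)) (Ici x₀) := by
    refine antitoneOn_of_deriv_nonpos (convex_Ici x₀) ?_ ?_ ?_
    · intro t ht
      have htA : A < t := lt_of_lt_of_le hx₀ ht
      have h1 := hasDerivAt_re_x hV y htA
      exact (h1.continuousAt.div (by fun_prop) (by linarith)).continuousWithinAt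
    · intro t ht
      rw [interior_Ici] at ht
      have htA : A < t := lt_trans hx₀ ht
      have h1 := hasDerivAt_re_x hV y htA
      have h2 : HasDerivAt (fun x : ℝ => x - A) 1 t := (hasDerivAt_id t).sub_const A
      exact (h1.div h2 (by linarith)).differentiableAt.differentiableWithinAt
    · intro t ht
      rw [interior_Ici] at ht
      have htA : A < t := lt_trans hx₀ ht
      have h1 := hasDerivAt_re_x hV y htA
      have h2 : HasDerivAt (fun x : ℝ => x - A) 1 t := (hasDerivAt_id t).sub_const A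
      have h3 : HasDerivAt (fun x : ℝ => (V (x + y * I)).re / (x - A))
          (((deriv V (t + y * I)).re * (t - A) - (V (t + y * I)).re * 1) / (t - A) ^ 2) t :=
        h1.div h2 (by linarith)
      rw [h3.deriv]
      refine div_nonpos_of_nonpos_of_nonneg ?_ (sq_nonneg _)
      have hm : (t + y * I : ℂ) ∈ HP A := by show A < _; simpa using htA
      have h4 := norm_deriv_le hV hpos hm
      have h5 : (t + y * I : ℂ).re = t := by simp
      rw [h5] at h4
      have h6 := Complex.re_le_norm (deriv V (t + y * I))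
      nlinarith
  have h := key (mem_Ici.2 le_rfl) (mem_Ici.2 hx) hx
  simp only at h
  rw [div_le_div_iff₀ (by linarith) (by linarith)] at h
  exact h

/-- Harnack in the vertical direction -/
lemma harnack_y (hV : DifferentiableOn ℂ V (HP A)) (hpos : ∀ z ∈ HP A, 0 ≤ (V z).re)
    {x : ℝ} (hx : A < x) (y₀ y : ℝ) :
    (V (x + y * I)).re ≤ (V (x + y₀ * I)).re * Real.exp (|y - y₀| / (x - A)) := by
  have hxA : 0 < x - A := by linarith
  have hb : ∀ t : ℝ, |(deriv V (x + t * I)).im| ≤ (V (x + t * I)).re / (x - A) := by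
    intro t
    have hm : (x + t * I : ℂ) ∈ HP A := by show A < _; simpa using hx
    have h4 := norm_deriv_le hV hpos hm
    have h5 : (x + t * I : ℂ).re = x := by simp
    rw [h5] at h4
    rw [le_div_iff₀ hxA]
    have h6 := Complex.abs_im_le_norm (deriv V (x + t * I))
    nlinarith
  have hE : ∀ (s t : ℝ), HasDerivAt (fun t : ℝ => Real.exp (s * t / (x - A)))
      (Real.exp (s * t / (x - A)) * (s / (x - A))) t := by
    intro s t
    have h1 : HasDerivAt (fun t : ℝ => s * t / (x - A)) (s / (x - A)) t := by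
      have := ((hasDerivAt_id t).const_mul s).div_const (x - A)
      simpa using this
    exact h1.exp
  rcases le_total y₀ y with h | h
  · -- antitone with exp (-t/(x-A))
    have key : Antitone (fun t : ℝ => (V (x + t * I)).re * Real.exp (-1 * t / (x - A))) := by
      refine antitone_of_deriv_nonpos (fun t => ?_) (fun t => ?_)
      · exact ((hasDerivAt_re_y hV hx t).mul (hE (-1) t)).differentiableAt
      · have hd : HasDerivAt (fun t : ℝ => (V (x + t * I)).re * Real.exp (-1 * t / (x - A)))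
            (-(deriv V (x + t * I)).im * Real.exp (-1 * t / (x - A)) +
            (V (x + t * I)).re * (Real.exp (-1 * t / (x - A)) * (-1 / (x - A)))) t :=
          (hasDerivAt_re_y hV hx t).mul (hE (-1) t)
        rw [hd.deriv]
        have h1 := (abs_le.1 (hb t)).1
        have h2 := Real.exp_pos (-1 * t / (x - A))
        have h3 : -(deriv V (x + t * I)).im * Real.exp (-1 * t / (x - A)) +
            (V (x + t * I)).re * (Real.exp (-1 * t / (x - A)) * (-1 / (x - A))) =
            (-(deriv V (x + t * I)).im - (V (x + t * I)).re / (x - A)) *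
              Real.exp (-1 * t / (x - A)) := by ring
        rw [h3]
        exact mul_nonpos_of_nonpos_of_nonneg (by linarith) h2.le
    have h1 := key h
    simp only at h1
    rw [abs_of_nonneg (by linarith)]
    have h2 : Real.exp ((y - y₀) / (x - A)) =
        Real.exp (-1 * y₀ / (x - A)) * Real.exp (y / (x - A)) := by
      rw [← Real.exp_add]; congr 1; ring
    have h3 : (V (x + y * I)).re =
        (V (x + y * I)).re * Real.exp (-1 * y / (x - A)) * Real.exp (y / (x - A)) := by
      rw [mul_assoc, ← Real.exp_add]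
      have : -1 * y / (x - A) + y / (x - A) = 0 := by ring
      rw [this, Real.exp_zero, mul_one]
    rw [h2, ← mul_assoc, h3]
    exact mul_le_mul_of_nonneg_right h1 (Real.exp_pos _).le
  · have key : Monotone (fun t : ℝ => (V (x + t * I)).re * Real.exp (1 * t / (x - A))) := by
      refine monotone_of_deriv_nonneg (fun t => ?_) (fun t => ?_)
      · exact ((hasDerivAt_re_y hV hx t).mul (hE 1 t)).differentiableAt
      · have hd : HasDerivAt (fun t : ℝ => (V (x + t * I)).re * Real.exp (1 * t / (x - A)))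
            (-(deriv V (x + t * I)).im * Real.exp (1 * t / (x - A)) +
            (V (x + t * I)).re * (Real.exp (1 * t / (x - A)) * (1 / (x - A)))) t :=
          (hasDerivAt_re_y hV hx t).mul (hE 1 t)
        rw [hd.deriv]
        have h1 := (abs_le.1 (hb t)).2
        have h2 := Real.exp_pos (1 * t / (x - A))
        have h3 : -(deriv V (x + t * I)).im * Real.exp (1 * t / (x - A)) +
            (V (x + t * I)).re * (Real.exp (1 * t / (x - A)) * (1 / (x - A))) =
            (-(deriv V (x + t * I)).im + (V (x + t * I)).re / (x - A)) *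
              Real.exp (1 * t / (x - A)) := by ring
        rw [h3]
        exact mul_nonneg (by linarith) h2.le
    have h1 := key h
    simp only at h1
    rw [abs_of_nonpos (by linarith)]
    have h2 : Real.exp (-(y - y₀) / (x - A)) =
        Real.exp (1 * y₀ / (x - A)) * Real.exp (-y / (x - A)) := by
      rw [← Real.exp_add]; congr 1; ring
    have h3 : (V (x + y * I)).re =
        (V (x + y * I)).re * Real.exp (1 * y / (x - A)) * Real.exp (-y / (x - A)) := by
      rw [mul_assoc, ← Real.exp_add]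
      have : 1 * y / (x - A) + -y / (x - A) = 0 := by ring
      rw [this, Real.exp_zero, mul_one]
    rw [h2, ← mul_assoc, h3]
    exact mul_le_mul_of_nonneg_right h1 (Real.exp_pos _).le

/-- **Julia-Wolff at infinity** -/
theorem julia_wolff (hV : DifferentiableOn ℂ V (HP A)) (hpos : ∀ z ∈ HP A, 0 ≤ (V z).re) :
    ∃ c : ℝ, 0 ≤ c ∧ (∀ z ∈ HP A, c * (z.re - A) ≤ (V z).re) ∧
      ∀ M ε : ℝ, 0 < ε → ∃ x₀ : ℝ, A < x₀ ∧ 0 < x₀ ∧ ∀ z : ℂ, x₀ ≤ z.re → |z.im| ≤ M * z.re →
        ‖deriv V z - c‖ ≤ ε := by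
  set S : Set ℝ := (fun z : ℂ => (V z).re / (z.re - A)) '' HP A with hS
  have hSne : S.Nonempty := ⟨_, ⟨((A + 1 : ℝ) : ℂ), by show A < _; simp, rfl⟩⟩
  have hS0 : ∀ s ∈ S, 0 ≤ s := by
    rintro s ⟨z, hz, rfl⟩
    have hz' : A < z.re := hz
    exact div_nonneg (hpos z hz) (by linarith)
  have hbdd : BddBelow S := ⟨0, hS0⟩
  set c := sInf S with hc
  have hc0 : 0 ≤ c := le_csInf hSne hS0
  have hcle : ∀ z ∈ HP A, c * (z.re - A) ≤ (V z).re := by
    intro z hz
    have hz' : A < z.re := hz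
    have h1 : c ≤ (V z).re / (z.re - A) := csInf_le hbdd ⟨z, hz, rfl⟩
    rwa [le_div_iff₀ (by linarith)] at h1
  refine ⟨c, hc0, hcle, fun M ε hε => ?_⟩
  -- the reduced function
  set W : ℂ → ℂ := fun z => V z - c * (z - A) with hW
  have hWd : DifferentiableOn ℂ W (HP A) := hV.sub (by fun_prop)
  have hWre : ∀ z, (W z).re = (V z).re - c * (z.re - A) := by
    intro z
    simp [hW]
  have hWpos : ∀ z ∈ HP A, 0 ≤ (W z).re := by
    intro z hz
    rw [hWre]
    have := hcle z hz
    linarith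
  have hWder : ∀ z ∈ HP A, deriv W z = deriv V z - c := by
    intro z hz
    have h1 : HasDerivAt V (deriv V z) z :=
      (hV.differentiableAt ((isOpen_HP A).mem_nhds hz)).hasDerivAt
    have h2 : HasDerivAt (fun z : ℂ => (c : ℂ) * (z - A)) c z := by
      have := ((hasDerivAt_id z).sub_const (A : ℂ)).const_mul (c : ℂ)
      simpa using this
    exact (h1.sub h2).deriv
  set CM : ℝ := Real.exp (4 * (|M| + 1)) with hCM
  have hCM0 : 0 < CM := Real.exp_pos _
  obtain ⟨s, ⟨z₀, hz₀, rfl⟩, hlt⟩ : ∃ s ∈ S, s < c + ε / CM := by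
    refine exists_lt_of_csInf_lt hSne ?_
    have : 0 < ε / CM := by positivity
    linarith
  have hz₀' : A < z₀.re := hz₀
  simp only at hlt
  rw [div_lt_iff₀ (by linarith)] at hlt
  have hz₀e : (z₀.re : ℂ) + z₀.im * I = z₀ := Complex.re_add_im z₀
  have hW0 : (W z₀).re ≤ ε / CM * (z₀.re - A) := by
    rw [hWre]
    have : (c + ε / CM) * (z₀.re - A) = c * (z₀.re - A) + ε / CM * (z₀.re - A) := by ring
    linarith
  refine ⟨max z₀.re (2 * |A| + |z₀.im| + 1), lt_of_lt_of_le hz₀' (le_max_left _ _),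
    lt_of_lt_of_le (by positivity) (le_max_right _ _), fun z hz hzM => ?_⟩
  have hx1 : z₀.re ≤ z.re := (le_max_left _ _).trans hz
  have hx2 : 2 * |A| + |z₀.im| + 1 ≤ z.re := (le_max_right _ _).trans hz
  have hxA : A < z.re := by
    have := le_abs_self A
    have := abs_nonneg A
    have := abs_nonneg z₀.im
    linarith
  have hzHP : z ∈ HP A := hxA
  have h1 := antitone_x hWd hWpos z₀.im hz₀' hx1
  rw [hz₀e] at h1
  have h2 := harnack_y hWd hWpos hxA z₀.im z.im
  rw [Complex.re_add_im z] at h2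
  have h3 : |z.im - z₀.im| / (z.re - A) ≤ 4 * (|M| + 1) := by
    rw [div_le_iff₀ (by linarith)]
    have e1 : |z.im - z₀.im| ≤ |z.im| + |z₀.im| := abs_sub _ _
    have e2 : z.re / 2 ≤ z.re - A := by
      have := le_abs_self A
      have := abs_nonneg z₀.im
      linarith
    have e3 : M * z.re ≤ |M| * z.re := by
      have := le_abs_self M
      have := abs_nonneg A
      have := abs_nonneg z₀.im
      nlinarith
    have e4 := abs_nonneg M
    have e5 := abs_nonneg A
    have e6 : 0 ≤ z.re := by linarith [abs_nonneg z₀.im]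
    nlinarith [mul_nonneg e4 e6]
  have h4 : Real.exp (|z.im - z₀.im| / (z.re - A)) ≤ CM := Real.exp_le_exp.2 h3
  have h5 : (W (z.re + z₀.im * I)).re ≤ ε / CM * (z.re - A) := by
    have e1 : (W (z.re + z₀.im * I)).re * (z₀.re - A) ≤ ε / CM * (z.re - A) * (z₀.re - A) := by
      refine h1.trans ?_
      have : (W z₀).re * (z.re - A) ≤ ε / CM * (z₀.re - A) * (z.re - A) :=
        mul_le_mul_of_nonneg_right hW0 (by linarith)
      linarith
    exact le_of_mul_le_mul_right e1 (by linarith)
  have h6 : (W z).re ≤ ε * (z.re - A) := by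
    have e0 : 0 ≤ (W (z.re + z₀.im * I)).re := hWpos _ (by show A < _; simpa using hxA)
    calc (W z).re ≤ (W (z.re + z₀.im * I)).re * Real.exp (|z.im - z₀.im| / (z.re - A)) := h2
      _ ≤ (W (z.re + z₀.im * I)).re * CM := mul_le_mul_of_nonneg_left h4 e0
      _ ≤ ε / CM * (z.re - A) * CM := mul_le_mul_of_nonneg_right h5 hCM0.le
      _ = ε * (z.re - A) := by field_simp
  have h7 := norm_deriv_le hWd hWpos hzHP
  rw [hWder z hzHP] at h7
  have h8 : ‖deriv V z - c‖ * (z.re - A) ≤ ε * (z.re - A) := h7.trans h6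
  exact le_of_mul_le_mul_right h8 (by linarith)

end

end Vale.Agent.P097.H888
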