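import Vale.Agent.P097.H888.JW

/-!
# Julia-Wolff for bounded zero free functions on a left half plane
-/

open Complex Metric Set Filter Topology

namespace Vale.Agent.P097.H888

/-- the inverse Cayley map -/
noncomputable def cayInv (A : ℝ) (z : ℂ) : ℂ := (z - A - 1) / (z - A + 1)

lemma den_ne {A : ℝ} {z : ℂ} (hz : z ∈ HP A) : z - A + 1 ≠ 0 := by
  intro h
  have h1 := congrArg re h
  simp only [add_re, sub_re, ofReal_re, one_re, zero_re] at h1
  have hz' : A < z.re := hz
  linarith

lemma cayInv_mem {A : ℝ} {z : ℂ} (hz : z ∈ HP A) : cayInv A z ∈ ball (0 : ℂ) 1 := by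
  have hz' : A < z.re := hz
  rw [mem_ball_zero_iff, cayInv, norm_div, div_lt_one (norm_pos_iff.2 (den_ne hz))]
  have h1 : ‖z - A - 1‖ ^ 2 < ‖z - A + 1‖ ^ 2 := by
    rw [← Complex.normSq_eq_norm_sq, ← Complex.normSq_eq_norm_sq, Complex.normSq_apply,
      Complex.normSq_apply]
    simp only [sub_re, sub_im, add_re, add_im, one_re, one_im, ofReal_re, ofReal_im]
    nlinarith
  exact lt_of_pow_lt_pow_left₀ 2 (norm_nonneg _) h1

lemma cay_cayInv {A : ℝ} {z : ℂ} (hz : z ∈ HP A) : cay A 1 (cayInv A z) = z := by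
  have h0 := den_ne hz
  have h1 := one_sub_ne (cayInv_mem hz)
  unfold cay cayInv at *
  rw [map_one, one_mul]
  have h2 : (1 + (z - A - 1) / (z - A + 1)) = 2 * (z - A) / (z - A + 1) := by
    field_simp
    ring
  have h3 : (1 - (z - A - 1) / (z - A + 1)) = 2 / (z - A + 1) := by
    field_simp
    ring
  rw [h2, h3]
  field_simp
  ring

/-- logarithm of a zero free holomorphic function on a half plane -/
theorem exists_log_HP {f : ℂ → ℂ} {A : ℝ} (hf : DifferentiableOn ℂ f (HP A))
    (h0 : ∀ z ∈ HP A, f z ≠ 0) :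
    ∃ g : ℂ → ℂ, DifferentiableOn ℂ g (HP A) ∧ ∀ z ∈ HP A, exp (g z) = f z := by
  have h1 : DifferentiableOn ℂ (fun ζ => f (cay A 1 ζ)) (ball 0 1) := by
    intro ζ hζ
    have h2 : DifferentiableAt ℂ f (cay A 1 ζ) :=
      hf.differentiableAt ((isOpen_HP A).mem_nhds (cay_mem (by simp) hζ))
    exact (h2.comp ζ (hasDerivAt_cay A 1 hζ).differentiableAt).differentiableWithinAt
  have h2 : ∀ ζ ∈ ball (0 : ℂ) 1, f (cay A 1 ζ) ≠ 0 := fun ζ hζ => h0 _ (cay_mem (by simp) hζ)
  have h3 : exp (Complex.log (f (cay A 1 0))) = f (cay A 1 0) :=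
    Complex.exp_log (h2 0 (by simp))
  obtain ⟨g, hg, -, hge⟩ := Vale.Agent.P097.H699.exists_log one_pos h1 h2 h3
  refine ⟨fun z => g (cayInv A z), ?_, fun z hz => ?_⟩
  · intro z hz
    have h4 : DifferentiableAt ℂ g (cayInv A z) :=
      hg.differentiableAt (isOpen_ball.mem_nhds (cayInv_mem hz))
    have h5 : DifferentiableAt ℂ (cayInv A) z := by
      unfold cayInv
      exact ((differentiableAt_id.sub_const _).sub_const _).div
        ((differentiableAt_id.sub_const _).add_const _) (den_ne hz)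
    exact (h4.comp z h5).differentiableWithinAt
  · rw [hge _ (cayInv_mem hz), cay_cayInv hz]

/-- **Julia-Wolff for bounded zero free functions** (left half plane) -/
theorem julia_wolff_log {f : ℂ → ℂ} {A K : ℝ}
    (hf : DifferentiableOn ℂ f {z | z.re < -A}) (h0 : ∀ z : ℂ, z.re < -A → f z ≠ 0)
    (hK : ∀ z : ℂ, z.re < -A → ‖f z‖ ≤ K) :
    ∃ c : ℝ, 0 ≤ c ∧ (∀ z : ℂ, z.re < -A → ‖f z‖ ≤ K * Real.exp (c * (z.re + A))) ∧
      (∀ M ε : ℝ, 0 < ε → ∃ x₀ : ℝ, A < x₀ ∧ 0 < x₀ ∧ ∀ z : ℂ, z.re ≤ -x₀ →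
        |z.im| ≤ M * (-z.re) → ‖deriv f z / f z - c‖ ≤ ε) ∧
      ∀ M R ε : ℝ, 0 < ε → ∃ x₀ : ℝ, A < x₀ ∧ 0 < x₀ ∧ ∀ z : ℂ, z.re ≤ -x₀ →
        |z.im| ≤ M * (-z.re) → ∀ h : ℂ, ‖h‖ ≤ R → ‖f (z + h) / f z - exp (c * h)‖ ≤ ε := by
  have hmem : ∀ z : ℂ, z ∈ HP A → (-z).re < -A := by
    intro z hz
    have : A < z.re := hz
    rw [neg_re]
    linarith
  have hKpos : 0 < K := by
    have h1 : (((-A - 1 : ℝ) : ℂ)).re < -A := by simp
    exact lt_of_lt_of_le (norm_pos_iff.2 (h0 _ h1)) (hK _ h1)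
  set F : ℂ → ℂ := fun z => f (-z) with hF
  have hopen : IsOpen {z : ℂ | z.re < -A} := isOpen_lt continuous_re continuous_const
  have hFd : ∀ z ∈ HP A, HasDerivAt F (-(deriv f (-z))) z := by
    intro z hz
    have h1 : HasDerivAt f (deriv f (-z)) (-z) :=
      (hf.differentiableAt (hopen.mem_nhds (hmem z hz))).hasDerivAt
    have h2 : HasDerivAt (fun z : ℂ => -z) (-1) z := hasDerivAt_neg z
    have h3 := h1.comp z h2
    rw [mul_neg_one] at h3
    exact h3
  have hFdiff : DifferentiableOn ℂ F (HP A) := fun z hz =>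
    (hFd z hz).differentiableAt.differentiableWithinAt
  have hF0 : ∀ z ∈ HP A, F z ≠ 0 := fun z hz => h0 _ (hmem z hz)
  obtain ⟨G, hG, hGe⟩ := exists_log_HP hFdiff hF0
  have hGd : ∀ z ∈ HP A, HasDerivAt G (-(deriv f (-z) / f (-z))) z := by
    intro z hz
    have h1 : HasDerivAt G (deriv G z) z :=
      (hG.differentiableAt ((isOpen_HP A).mem_nhds hz)).hasDerivAt
    have h2 : HasDerivAt (fun z => exp (G z)) (exp (G z) * deriv G z) z := h1.cexp
    have h3 : (fun z => exp (G z)) =ᶠ[𝓝 z] F := by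
      filter_upwards [(isOpen_HP A).mem_nhds hz] with y hy using hGe y hy
    have h4 := (hFd z hz).congr_of_eventuallyEq h3
    have h5 := h2.unique h4
    rw [hGe z hz] at h5
    have h6 : F z ≠ 0 := hF0 z hz
    have h7 : deriv G z = -(deriv f (-z) / f (-z)) := by
      have h8 : deriv G z = -(deriv f (-z)) / F z := by
        rw [← h5]
        field_simp
      rw [h8, hF, neg_div]
    rwa [h7] at h1
  set V : ℂ → ℂ := fun z => (Real.log K : ℂ) - G z with hV
  have hVd : DifferentiableOn ℂ V (HP A) := (differentiableOn_const _).sub hG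
  have hVre : ∀ z ∈ HP A, (V z).re = Real.log K - Real.log ‖f (-z)‖ := by
    intro z hz
    simp only [hV, sub_re, ofReal_re]
    congr 1
    have h1 : ‖F z‖ = Real.exp (G z).re := by rw [← hGe z hz, Complex.norm_exp]
    have h2 : ‖f (-z)‖ = Real.exp (G z).re := h1
    rw [h2, Real.log_exp]
  have hVpos : ∀ z ∈ HP A, 0 ≤ (V z).re := by
    intro z hz
    rw [hVre z hz]
    have h1 := hK _ (hmem z hz)
    have h2 : 0 < ‖f (-z)‖ := norm_pos_iff.2 (h0 _ (hmem z hz))
    have := Real.log_le_log h2 h1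
    linarith
  have hVder : ∀ z ∈ HP A, HasDerivAt V (deriv f (-z) / f (-z)) z := by
    intro z hz
    have := (hGd z hz).const_sub (Real.log K : ℂ)
    rwa [neg_neg] at this
  obtain ⟨c, hc0, hcle, hclim⟩ := julia_wolff hVd hVpos
  refine ⟨c, hc0, fun z hz => ?_, fun M ε hε => ?_, fun M R ε hε => ?_⟩
  · have hz' : -z ∈ HP A := by show A < (-z).re; rw [neg_re]; linarith
    have h1 := hcle _ hz'
    rw [hVre _ hz', neg_neg, neg_re] at h1
    have h2 : 0 < ‖f z‖ := norm_pos_iff.2 (h0 _ hz)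
    have h3 : Real.log ‖f z‖ ≤ Real.log K + c * (z.re + A) := by linarith
    calc ‖f z‖ = Real.exp (Real.log ‖f z‖) := (Real.exp_log h2).symm
      _ ≤ Real.exp (Real.log K + c * (z.re + A)) := Real.exp_le_exp.2 h3
      _ = K * Real.exp (c * (z.re + A)) := by rw [Real.exp_add, Real.exp_log hKpos]
  · obtain ⟨x₀, hx₀A, hx₀, hx⟩ := hclim M ε hε
    refine ⟨x₀, hx₀A, hx₀, fun z hz hzM => ?_⟩
    have hz' : -z ∈ HP A := by show A < (-z).re; rw [neg_re]; linarith
    have h1 := hx (-z) (by rw [neg_re]; linarith) (by rw [neg_im, neg_re, abs_neg]; exact hzM)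
    rw [(hVder _ hz').deriv, neg_neg] at h1
    exact h1
  · -- uniform ratio
    set R' : ℝ := max R 1 with hR'
    have hR1 : 1 ≤ R' := le_max_right _ _
    have hR0 : 0 < R' := by linarith
    set B : ℝ := Real.exp (c * R') with hB
    have hB0 : 0 < B := Real.exp_pos _
    set η : ℝ := min (1 / R') (ε / (2 * B * R')) with hη
    have hη0 : 0 < η := by positivity
    obtain ⟨x₀, hx₀A, hx₀, hx⟩ := hclim (2 * |M| + 1) η hη0
    refine ⟨x₀ + 2 * R' * (|M| + 1), ?_, by positivity, fun z hz hzM h hh => ?_⟩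
    · have : 0 < 2 * R' * (|M| + 1) := by positivity
      linarith
    have hhR : ‖h‖ ≤ R' := hh.trans (le_max_left _ _)
    have hM0 : 0 ≤ |M| := abs_nonneg M
    -- the segment
    have hseg : ∀ y ∈ closedBall (-z) R', y ∈ HP A ∧ ‖deriv V y - c‖ ≤ η := by
      intro y hy
      rw [mem_closedBall, dist_eq_norm] at hy
      have e1 : |(y - -z).re| ≤ R' := (Complex.abs_re_le_norm _).trans hy
      have e2 : |(y - -z).im| ≤ R' := (Complex.abs_im_le_norm _).trans hy
      have e3 : (y - -z).re = y.re + z.re := by simp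
      have e4 : (y - -z).im = y.im + z.im := by simp
      rw [e3] at e1
      rw [e4] at e2
      have e5 := abs_le.1 e1
      have e6 : x₀ ≤ y.re := by nlinarith [e5.1, mul_nonneg hR0.le hM0]
      have e7 : |y.im| ≤ (2 * |M| + 1) * y.re := by
        have f1 : |y.im| ≤ |z.im| + R' := by
          have f2 : |y.im| - |z.im| ≤ |y.im + z.im| := by
            have := abs_sub_abs_le_abs_sub y.im (-z.im)
            rw [abs_neg, sub_neg_eq_add] at this
            exact this
          linarith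
        have f3 : M * (-z.re) ≤ |M| * (-z.re) :=
          mul_le_mul_of_nonneg_right (le_abs_self M) (by nlinarith [mul_nonneg hR0.le hM0])
        have f4 : -z.re ≤ y.re + R' := by linarith [e5.1]
        have f5 : 2 * R' * (|M| + 1) ≤ y.re + R' := by linarith
        nlinarith [mul_nonneg hR0.le hM0, mul_nonneg hM0 hx₀.le,
          mul_le_mul_of_nonneg_left f4 hM0]
      exact ⟨lt_of_lt_of_le hx₀A e6, hx y e6 e7⟩
    have hz' : -z ∈ closedBall (-z) R' := mem_closedBall_self hR0.le
    have hzh : -(z + h) ∈ closedBall (-z) R' := by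
      rw [mem_closedBall, dist_eq_norm]
      have : -(z + h) - -z = -h := by ring
      rw [this, norm_neg]
      exact hhR
    have hmv : ‖(V (-(z + h)) - c * -(z + h)) - (V (-z) - c * -z)‖ ≤ η * ‖-(z + h) - -z‖ := by
      refine (convex_closedBall (-z) R').norm_image_sub_le_of_norm_hasDerivWithin_le
        (f := fun y => V y - c * y) (f' := fun y => deriv V y - c) (fun y hy => ?_)
        (fun y hy => (hseg y hy).2) hz' hzh
      have h1 : HasDerivAt V (deriv V y) y :=
        (hVd.differentiableAt ((isOpen_HP A).mem_nhds (hseg y hy).1)).hasDerivAt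
      have h2 : HasDerivAt (fun y : ℂ => (c : ℂ) * y) c y := by
        have := (hasDerivAt_id y).const_mul (c : ℂ)
        simpa using this
      exact (h1.sub h2).hasDerivWithinAt
    have e1 : -(z + h) - -z = -h := by ring
    rw [e1, norm_neg] at hmv
    set q : ℂ := G (-(z + h)) - G (-z) - c * h with hq
    have e2 : (V (-(z + h)) - c * -(z + h)) - (V (-z) - c * -z) = -q := by
      simp only [hV, hq]
      ring
    rw [e2, norm_neg] at hmv
    have hqle : ‖q‖ ≤ η * R' := hmv.trans (mul_le_mul_of_nonneg_left hhR hη0.le)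
    have hq1 : ‖q‖ ≤ 1 := by
      refine hqle.trans ?_
      have : η ≤ 1 / R' := min_le_left _ _
      calc η * R' ≤ 1 / R' * R' := mul_le_mul_of_nonneg_right this hR0.le
        _ = 1 := by field_simp
    have hratio : f (z + h) / f z = exp (c * h) * exp q := by
      have f1 : exp (G (-z)) = f z := by
        have := hGe (-z) (hseg _ hz').1
        simpa [hF] using this
      have f2 : exp (G (-(z + h))) = f (z + h) := by
        have := hGe (-(z + h)) (hseg _ hzh).1
        simpa only [hF, neg_neg] using this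
      rw [← f1, ← f2, ← Complex.exp_sub, ← Complex.exp_add]
      congr 1
      simp only [hq]
      ring
    have e3 : f (z + h) / f z - exp (c * h) = exp (c * h) * (exp q - 1) := by
      rw [hratio]; ring
    rw [e3, norm_mul]
    have e4 : ‖exp (c * h)‖ ≤ B := by
      rw [Complex.norm_exp, hB]
      apply Real.exp_le_exp.2
      rw [re_ofReal_mul]
      exact mul_le_mul_of_nonneg_left ((Complex.re_le_norm h).trans hhR) hc0
    have e5 : ‖exp q - 1‖ ≤ 2 * ‖q‖ := Complex.norm_exp_sub_one_le hq1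
    have e6 : η ≤ ε / (2 * B * R') := min_le_right _ _
    calc ‖exp (c * h)‖ * ‖exp q - 1‖ ≤ B * (2 * (η * R')) := by
          refine mul_le_mul e4 (e5.trans ?_) (norm_nonneg _) hB0.le
          linarith
      _ ≤ B * (2 * (ε / (2 * B * R') * R')) := by gcongr
      _ = ε := by field_simp

end Vale.Agent.P097.H888
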